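import Vale.Agent.Lib.P328.Expl.Defs
import Vale.Agent.Lib.P328.RC.HbMat

/-!
# P328: the explicit update kernel `ker` is the heat-bath matrix `hbMat`
-/

namespace P328X

open P335 P328RC Finset

theorem sum_two {α : Type*} [DecidableEq α] [Fintype α] {f g : α → ℕ} {x y : α} (hxy : x ≠ y)
    (hrest : ∀ b, b ≠ x → b ≠ y → g b = f b) :
    (∑ b, g b = ∑ b, f b) ↔ g x + g y = f x + f y := by
  have hy' : y ∈ (univ : Finset α).erase x := mem_erase.2 ⟨hxy.symm, mem_univ y⟩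
  rw [← add_sum_erase univ g (mem_univ x), ← add_sum_erase univ f (mem_univ x),
    ← add_sum_erase _ g hy', ← add_sum_erase _ f hy']
  have : ∑ b ∈ (univ.erase x).erase y, g b = ∑ b ∈ (univ.erase x).erase y, f b := by
    apply sum_congr rfl
    intro b hb
    simp only [mem_erase] at hb
    exact hrest b hb.2.1 hb.1
  omega

variable {m n : ℕ}

section eval

variable (X : Fin m → Fin n → ℕ) (b : Fin m × Fin m) (b' : Fin n × Fin n) (v : ℕ)

theorem blk_11 : blk X b b' v b.1 b'.1 = v := by simp [blk]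

theorem blk_12 (hb' : b'.1 ≠ b'.2) : blk X b b' v b.1 b'.2 = X b.1 b'.1 + X b.1 b'.2 - v := by
  simp [blk, hb'.symm]

theorem blk_21 (hb : b.1 ≠ b.2) : blk X b b' v b.2 b'.1 = X b.1 b'.1 + X b.2 b'.1 - v := by
  simp [blk, hb.symm]

theorem blk_22 (hb : b.1 ≠ b.2) (hb' : b'.1 ≠ b'.2) :
    blk X b b' v b.2 b'.2 = X b.2 b'.2 + v - X b.1 b'.1 := by
  simp [blk, hb.symm, hb'.symm]

theorem blk_off (a : Fin m) (j : Fin n)
    (h : ¬((a = b.1 ∨ a = b.2) ∧ (j = b'.1 ∨ j = b'.2))) : blk X b b' v a j = X a j := by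
  unfold blk
  by_cases h1 : a = b.1
  · have h2 : j ≠ b'.1 := fun hj => h ⟨Or.inl h1, Or.inl hj⟩
    have h3 : j ≠ b'.2 := fun hj => h ⟨Or.inl h1, Or.inr hj⟩
    simp [h1, h2, h3]
  · by_cases h1' : a = b.2
    · have h2 : j ≠ b'.1 := fun hj => h ⟨Or.inr h1', Or.inl hj⟩
      have h3 : j ≠ b'.2 := fun hj => h ⟨Or.inr h1', Or.inr hj⟩
      rw [if_neg h1, if_pos h1', if_neg h2, if_neg h3]
    · rw [if_neg h1, if_neg h1']

theorem blk_row (hb : b.1 ≠ b.2) (hb' : b'.1 ≠ b'.2) (h1 : loB X b b' ≤ v) (h2 : v ≤ hiB X b b')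
    (a : Fin m) : ∑ j, blk X b b' v a j = ∑ j, X a j := by
  unfold loB at h1
  unfold hiB at h2
  have m1 := min_le_left (X b.1 b'.2) (X b.2 b'.1)
  have m2 := min_le_right (X b.1 b'.2) (X b.2 b'.1)
  by_cases ha : a = b.1 ∨ a = b.2
  · refine (sum_two hb' (fun j hj1 hj2 => blk_off X b b' v a j
      (fun hc => hc.2.elim hj1 hj2))).2 ?_
    rcases ha with ha | ha
    · rw [ha, blk_11, blk_12 X b b' v hb']
      omega
    · rw [ha, blk_21 X b b' v hb, blk_22 X b b' v hb hb']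
      omega
  · exact Finset.sum_congr rfl (fun j _ => blk_off X b b' v a j (fun hc => ha hc.1))

theorem blk_col (hb : b.1 ≠ b.2) (hb' : b'.1 ≠ b'.2) (h1 : loB X b b' ≤ v) (h2 : v ≤ hiB X b b')
    (j : Fin n) : ∑ a, blk X b b' v a j = ∑ a, X a j := by
  unfold loB at h1
  unfold hiB at h2
  have m1 := min_le_left (X b.1 b'.2) (X b.2 b'.1)
  have m2 := min_le_right (X b.1 b'.2) (X b.2 b'.1)
  by_cases hj : j = b'.1 ∨ j = b'.2
  · refine (sum_two (f := fun a => X a j) (g := fun a => blk X b b' v a j) hb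
      (fun a ha1 ha2 => blk_off X b b' v a j (fun hc => hc.1.elim ha1 ha2))).2 ?_
    rcases hj with hj | hj
    · simp only [hj]
      rw [blk_11, blk_21 X b b' v hb]
      omega
    · simp only [hj]
      rw [blk_12 X b b' v hb', blk_22 X b b' v hb hb']
      omega
  · exact Finset.sum_congr rfl (fun a _ => blk_off X b b' v a j (fun hc => hj hc.2))

end eval

variable {r : Fin m → ℕ} {c : Fin n → ℕ}

/-- the updated table -/
def blkTab (X : Tab r c) (b : Fin m × Fin m) (b' : Fin n × Fin n) (v : ℕ) (hb : b.1 ≠ b.2)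
    (hb' : b'.1 ≠ b'.2) (h1 : loB X.1 b b' ≤ v) (h2 : v ≤ hiB X.1 b b') : Tab r c :=
  ⟨blk X.1 b b' v, fun i => (blk_row X.1 b b' v hb hb' h1 h2 i).trans (X.2.1 i),
    fun j => (blk_col X.1 b b' v hb hb' h1 h2 j).trans (X.2.2 j)⟩

theorem RX_of_eq_blk (X Y : Tab r c) (b : Fin m × Fin m) (b' : Fin n × Fin n) (v : ℕ)
    (h : Y.1 = blk X.1 b b' v) : RX b b' X Y := by
  intro i j hij
  rw [h, blk_off X.1 b b' v i j hij]

theorem eq_blk_of_RX (X Y : Tab r c) (b : Fin m × Fin m) (b' : Fin n × Fin n) (hb : b.1 ≠ b.2)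
    (hb' : b'.1 ≠ b'.2) (h : RX b b' X Y) :
    Y.1 = blk X.1 b b' (Y.1 b.1 b'.1) ∧ loB X.1 b b' ≤ Y.1 b.1 b'.1 ∧
      Y.1 b.1 b'.1 ≤ hiB X.1 b b' := by
  have r1 : Y.1 b.1 b'.1 + Y.1 b.1 b'.2 = X.1 b.1 b'.1 + X.1 b.1 b'.2 :=
    (sum_two hb' (fun j hj1 hj2 => (h b.1 j (fun hc => hc.2.elim hj1 hj2)).symm)).1
      ((Y.2.1 b.1).trans (X.2.1 b.1).symm)
  have r2 : Y.1 b.2 b'.1 + Y.1 b.2 b'.2 = X.1 b.2 b'.1 + X.1 b.2 b'.2 :=
    (sum_two hb' (fun j hj1 hj2 => (h b.2 j (fun hc => hc.2.elim hj1 hj2)).symm)).1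
      ((Y.2.1 b.2).trans (X.2.1 b.2).symm)
  have c1 : Y.1 b.1 b'.1 + Y.1 b.2 b'.1 = X.1 b.1 b'.1 + X.1 b.2 b'.1 :=
    (sum_two (f := fun a => X.1 a b'.1) (g := fun a => Y.1 a b'.1) hb
      (fun a ha1 ha2 => (h a b'.1 (fun hc => hc.1.elim ha1 ha2)).symm)).1
      ((Y.2.2 b'.1).trans (X.2.2 b'.1).symm)
  refine ⟨?_, ?_, ?_⟩
  · funext a j
    by_cases hij : (a = b.1 ∨ a = b.2) ∧ (j = b'.1 ∨ j = b'.2)
    · rcases hij with ⟨ha | ha, hj | hj⟩
      · rw [ha, hj, blk_11]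
      · rw [ha, hj, blk_12 _ _ _ _ hb']
        omega
      · rw [ha, hj, blk_21 _ _ _ _ hb]
        omega
      · rw [ha, hj, blk_22 _ _ _ _ hb hb']
        omega
    · rw [blk_off X.1 b b' _ a j hij]
      exact (h a j hij).symm
  · unfold loB
    omega
  · unfold hiB
    rcases le_total (X.1 b.1 b'.2) (X.1 b.2 b'.1) with hh | hh
    · rw [min_eq_left hh]
      omega
    · rw [min_eq_right hh]
      omega

theorem lo_le_hi (X : Fin m → Fin n → ℕ) (b : Fin m × Fin m) (b' : Fin n × Fin n) :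
    loB X b b' ≤ hiB X b b' := by
  unfold loB hiB
  omega

theorem card_cls_RX (X : Tab r c) (b : Fin m × Fin m) (b' : Fin n × Fin n) (hb : b.1 ≠ b.2)
    (hb' : b'.1 ≠ b'.2) :
    (cls (RX b b') X).card = hiB X.1 b b' - loB X.1 b b' + 1 := by
  have h : (cls (RX b b') X).card = (Finset.Icc (loB X.1 b b') (hiB X.1 b b')).card := by
    refine Finset.card_bij (fun Y _ => Y.1 b.1 b'.1) ?_ ?_ ?_
    · intro Y hY
      have := eq_blk_of_RX X Y b b' hb hb' (mem_cls.1 hY)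
      exact Finset.mem_Icc.2 this.2
    · intro Y hY Y' hY' hv
      have e1 := (eq_blk_of_RX X Y b b' hb hb' (mem_cls.1 hY)).1
      have e2 := (eq_blk_of_RX X Y' b b' hb hb' (mem_cls.1 hY')).1
      apply Subtype.ext
      have hv' : Y.1 b.1 b'.1 = Y'.1 b.1 b'.1 := hv
      rw [e1, e2, hv']
    · intro v hv
      rw [Finset.mem_Icc] at hv
      refine ⟨blkTab X b b' v hb hb' hv.1 hv.2, mem_cls.2 (RX_of_eq_blk X _ b b' v rfl), ?_⟩
      exact blk_11 X.1 b b' v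
  rw [h, Nat.card_Icc]
  have := lo_le_hi X.1 b b'
  omega

theorem card_filter_blk (X Y : Tab r c) (b : Fin m × Fin m) (b' : Fin n × Fin n) (hb : b.1 ≠ b.2)
    (hb' : b'.1 ≠ b'.2) [Decidable (RX b b' X Y)] :
    ((Finset.Icc (loB X.1 b b') (hiB X.1 b b')).filter (fun v => Y.1 = blk X.1 b b' v)).card
      = if RX b b' X Y then 1 else 0 := by
  split_ifs with h
  · have e := eq_blk_of_RX X Y b b' hb hb' h
    rw [Finset.card_eq_one]
    refine ⟨Y.1 b.1 b'.1, ?_⟩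
    ext v
    rw [Finset.mem_filter, Finset.mem_singleton, Finset.mem_Icc]
    constructor
    · rintro ⟨_, hv⟩
      rw [hv, blk_11]
    · intro hv
      rw [hv]
      exact ⟨e.2, e.1⟩
  · rw [Finset.card_eq_zero, Finset.filter_eq_empty_iff]
    intro v _ hv
    exact h (RX_of_eq_blk X Y b b' v hv)

theorem card_pr_fin (m : ℕ) : (pr (Fin m)).card = m.choose 2 := by
  unfold pr
  rw [Finset.card_filter, Fintype.sum_prod_type_right]
  have h : ∀ b : Fin m, ∑ a : Fin m, (if (a, b).1 < (a, b).2 then 1 else 0) = (b : ℕ) := by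
    intro b
    rw [← Finset.card_filter]
    have : (univ.filter fun a : Fin m => (a, b).1 < (a, b).2) = Finset.Iio b := by
      ext a; simp
    rw [this, Fin.card_Iio]
  simp only [h]
  rw [Fin.sum_univ_eq_sum_range (fun i => i) m, Finset.sum_range_id, Nat.choose_two_right]

theorem ker_eq_hbMat (r : Fin m → ℕ) (c : Fin n → ℕ) : ker r c = hbMat r c := by
  classical
  funext X Y
  unfold ker hbMat
  rw [card_pr_fin, card_pr_fin]
  congr 1
  refine Finset.sum_congr rfl (fun b hb => Finset.sum_congr rfl (fun b' hb' => ?_))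
  have hb1 : b.1 ≠ b.2 := ne_of_lt (mem_pr.1 hb)
  have hb2 : b'.1 ≠ b'.2 := ne_of_lt (mem_pr.1 hb')
  rw [card_filter_blk X Y b b' hb1 hb2, card_cls_RX X b b' hb1 hb2]
  split_ifs <;> simp

end P328X
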