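import Vale.Agent.Lib.P328.RC.Defs

/-!
# P328: the `2 × 2` heat-bath chain written as an explicit randomised update, and the
north-west corner table
-/

namespace P328X

open P328RC Finset

/-- the table `X` with the entry in position `(b.1, b'.1)` of the block (rows `b`, columns `b'`)
set to `v` and the three other entries of the block adjusted so that the row and column sums of
the block do not change -/
def blk {m n : ℕ} (X : Fin m → Fin n → ℕ) (b : Fin m × Fin m) (b' : Fin n × Fin n) (v : ℕ) :
    Fin m → Fin n → ℕ := fun a j =>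
  if a = b.1 then
    (if j = b'.1 then v else if j = b'.2 then X b.1 b'.1 + X b.1 b'.2 - v else X a j)
  else if a = b.2 then
    (if j = b'.1 then X b.1 b'.1 + X b.2 b'.1 - v
      else if j = b'.2 then X b.2 b'.2 + v - X b.1 b'.1 else X a j)
  else X a j

/-- least admissible value of the entry `(b.1, b'.1)` -/
def loB {m n : ℕ} (X : Fin m → Fin n → ℕ) (b : Fin m × Fin m) (b' : Fin n × Fin n) : ℕ :=
  X b.1 b'.1 - X b.2 b'.2

/-- largest admissible value of the entry `(b.1, b'.1)` -/
def hiB {m n : ℕ} (X : Fin m → Fin n → ℕ) (b : Fin m × Fin m) (b' : Fin n × Fin n) : ℕ :=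
  X b.1 b'.1 + min (X b.1 b'.2) (X b.2 b'.1)

/-- transition matrix of the explicit update: choose a pair of rows `b` and a pair of columns `b'`
uniformly at random, choose an integer `v` uniformly in `[loB, hiB]`, move to `blk X b b' v` -/
noncomputable def ker {m n : ℕ} (r : Fin m → ℕ) (c : Fin n → ℕ) :
    Matrix (Tab r c) (Tab r c) ℝ := fun X Y =>
  (∑ b ∈ pr (Fin m), ∑ b' ∈ pr (Fin n),
    (((Finset.Icc (loB X.1 b b') (hiB X.1 b b')).filter (fun v => Y.1 = blk X.1 b b' v)).card : ℝ)
      / ((hiB X.1 b b' - loB X.1 b b' + 1 : ℕ) : ℝ))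
    / ((m.choose 2 : ℝ) * (n.choose 2 : ℝ))

/-- sum of the first `i` entries -/
def psum {k : ℕ} (f : Fin k → ℕ) (i : ℕ) : ℕ := ∑ a : Fin k, if (a : ℕ) < i then f a else 0

/-- the north-west corner table -/
def nw {m n : ℕ} (r : Fin m → ℕ) (c : Fin n → ℕ) : Fin m → Fin n → ℕ := fun i j =>
  min (psum r (i + 1)) (psum c (j + 1)) - max (psum r i) (psum c j)

end P328X
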