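import Vale.Agent.Lib.P328.Expl.Defs

/-!
# P328: the north-west corner table has the prescribed margins
-/

namespace P328X

open P328RC Finset

theorem psum_zero {k : ℕ} (f : Fin k → ℕ) : psum f 0 = 0 := by
  simp [psum]

theorem psum_succ {k : ℕ} (f : Fin k → ℕ) (i : Fin k) : psum f (i + 1) = psum f i + f i := by
  unfold psum
  have h : ∀ a : Fin k, (if (a : ℕ) < (i : ℕ) + 1 then f a else 0)
      = (if (a : ℕ) < (i : ℕ) then f a else 0) + (if a = i then f a else 0) := by
    intro a
    by_cases h1 : (a : ℕ) < (i : ℕ)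
    · have h2 : a ≠ i := fun e => by rw [e] at h1; exact lt_irrefl _ h1
      rw [if_pos h1, if_pos (by omega), if_neg h2, add_zero]
    · by_cases h2 : a = i
      · subst h2
        rw [if_neg h1, if_pos (by omega), if_pos rfl, zero_add]
      · have h3 : (a : ℕ) ≠ (i : ℕ) := fun e => h2 (Fin.ext e)
        rw [if_neg h1, if_neg (by omega), if_neg h2]
  rw [Finset.sum_congr rfl (fun a _ => h a), Finset.sum_add_distrib]
  congr 1
  simp

theorem psum_top {k : ℕ} (f : Fin k → ℕ) : psum f k = ∑ a, f a := by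
  unfold psum
  refine Finset.sum_congr rfl ?_
  intro a _
  rw [if_pos a.2]

theorem psum_mono {k : ℕ} (f : Fin k → ℕ) : Monotone (psum f) := by
  intro i j hij
  unfold psum
  refine Finset.sum_le_sum ?_
  intro a _
  by_cases h1 : (a : ℕ) < i
  · rw [if_pos h1, if_pos (lt_of_lt_of_le h1 hij)]
  · rw [if_neg h1]
    exact Nat.zero_le _

/-- telescoping through the clamp `x ↦ min B (max A x)` -/
theorem sum_clamp (A B : ℕ) (hAB : A ≤ B) (C : ℕ → ℕ) (hC : Monotone C) (h0 : C 0 = 0) (n : ℕ)
    (hn : B ≤ C n) :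
    ∑ j ∈ range n, (min B (C (j + 1)) - max A (C j)) = B - A := by
  have hφ : Monotone (fun j => min B (max A (C j))) := by
    intro x y hxy
    exact min_le_min le_rfl (max_le_max le_rfl (hC hxy))
  have hterm : ∀ j ∈ range n, min B (C (j + 1)) - max A (C j)
      = (fun j => min B (max A (C j))) (j + 1) - (fun j => min B (max A (C j))) j := by
    intro j _
    have hj : C j ≤ C (j + 1) := hC (Nat.le_succ j)
    simp only [min_def, max_def]
    split_ifs <;> omega
  rw [Finset.sum_congr rfl hterm, Finset.sum_range_tsub hφ n]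
  simp only [h0]
  rw [max_eq_right (le_trans hAB hn), min_eq_left hn, max_eq_left (Nat.zero_le A),
    min_eq_right hAB]

/-- hint: with `A = psum r i`, `B = psum r (i+1) = A + r i`, `C j = psum c j` (monotone, `C 0 = 0`,
`C n = ∑ c = ∑ r ≥ B`) and the clamp `φ x = min B (max A x)` one has
`min B (C (j+1)) - max A (C j) = φ (C (j+1)) - φ (C j)`; then `Fin.sum_univ_eq_sum_range` and
`Finset.sum_range_tsub` telescope the sum to `φ (C n) - φ (C 0) = B - A = r i`. -/
theorem nw_row {m n : ℕ} (r : Fin m → ℕ) (c : Fin n → ℕ) (h : ∑ i, r i = ∑ j, c j) (i : Fin m) :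
    ∑ j, nw r c i j = r i := by
  have h1 : psum r (i + 1) ≤ psum c n := by
    rw [psum_top, ← h, ← psum_top]
    exact psum_mono r i.2
  have h2 := sum_clamp (psum r i) (psum r (i + 1)) (psum_mono r (Nat.le_succ _)) (psum c)
    (psum_mono c) (psum_zero c) n h1
  have h3 : ∑ j : Fin n, nw r c i j
      = ∑ j ∈ range n, (min (psum r (i + 1)) (psum c (j + 1)) - max (psum r i) (psum c j)) := by
    rw [← Fin.sum_univ_eq_sum_range
      (fun j => min (psum r (i + 1)) (psum c (j + 1)) - max (psum r i) (psum c j)) n]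
    rfl
  rw [h3, h2, psum_succ]
  omega

theorem nw_col {m n : ℕ} (r : Fin m → ℕ) (c : Fin n → ℕ) (h : ∑ i, r i = ∑ j, c j) (j : Fin n) :
    ∑ i, nw r c i j = c j := by
  have h1 : psum c (j + 1) ≤ psum r m := by
    rw [psum_top, h, ← psum_top]
    exact psum_mono c j.2
  have h2 := sum_clamp (psum c j) (psum c (j + 1)) (psum_mono c (Nat.le_succ _)) (psum r)
    (psum_mono r) (psum_zero r) m h1
  have h3 : ∑ i : Fin m, nw r c i j
      = ∑ i ∈ range m, (min (psum c (j + 1)) (psum r (i + 1)) - max (psum c j) (psum r i)) := by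
    rw [← Fin.sum_univ_eq_sum_range
      (fun i => min (psum c (j + 1)) (psum r (i + 1)) - max (psum c j) (psum r i)) m]
    refine Finset.sum_congr rfl ?_
    intro i _
    unfold nw
    rw [min_comm, max_comm]
  rw [h3, h2, psum_succ]
  omega

end P328X
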